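import Vale.Agent.Lib.P150.Gap

namespace Vale.Agent.Results.P150.OverlapBound

open Vale.Agent.Lib.P150

/-- For every system size `n ≥ 1`, every inverse temperature `β` and every realization `g` of the
disorder, the spectral gap of the continuous-time heat-bath dynamics of the
Sherrington-Kirkpatrick Gibbs measure satisfies
`gap * (n ⟨R₁₂²⟩) ≤ 1 - n⁻¹ ∑_i ⟨tanh² h_i⟩ ≤ 1`, where `⟨R₁₂²⟩` is the second moment of the overlap
of two replicas; more generally `gap * ∑ v_i v_j ⟨x_i x_j⟩ ≤ ∑ v_i² ⟨1 - tanh² h_i⟩` for all `v`. -/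
theorem result {n : ℕ} (hn : 0 < n) (β : ℝ) (g : Fin n → Fin n → ℝ) :
    0 ≤ gap β g ∧
    (∀ v : Fin n → ℝ,
      gap β g * ∑ i, ∑ j, v i * v j * Ex β g (fun x => sp (x i) * sp (x j))
        ≤ ∑ i, v i ^ 2 * Ex β g (fun x => 1 - Real.tanh (field β g x i) ^ 2)) ∧
    gap β g * (n * overlapSq β g)
      ≤ 1 - (∑ i, Ex β g (fun x => Real.tanh (field β g x i) ^ 2)) / n ∧
    gap β g * (n * overlapSq β g) ≤ 1 :=
  ⟨gap_nonneg β g, gap_lin β g, gap_overlap hn β g, gap_overlap_le_one hn β g⟩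

end Vale.Agent.Results.P150.OverlapBound
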